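import Mathlib

/-!
The three-marginal Coulomb transport problem on Euclidean three-space.
-/

namespace Vale.Agent.P121

open MeasureTheory
open scoped ENNReal

/-- The Coulomb cost of three points, with value `∞` when two of them coincide
(in `ℝ≥0∞` the inverse of `0` is `∞`). -/
noncomputable def coulomb
    (x : EuclideanSpace ℝ (Fin 3) × EuclideanSpace ℝ (Fin 3) × EuclideanSpace ℝ (Fin 3)) : ℝ≥0∞ :=
  (edist x.1 x.2.1)⁻¹ + (edist x.1 x.2.2)⁻¹ + (edist x.2.1 x.2.2)⁻¹

/-- Probability measures on triples of points whose three marginals all equal `μ`. -/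
def couplings (μ : Measure (EuclideanSpace ℝ (Fin 3))) :
    Set (Measure
      (EuclideanSpace ℝ (Fin 3) × EuclideanSpace ℝ (Fin 3) × EuclideanSpace ℝ (Fin 3))) :=
  {π | IsProbabilityMeasure π ∧ π.map (fun x => x.1) = μ ∧ π.map (fun x => x.2.1) = μ ∧
    π.map (fun x => x.2.2) = μ}

/-- The Kantorovich value: the infimum of the Coulomb cost over all couplings. -/
noncomputable def kantorovich (μ : Measure (EuclideanSpace ℝ (Fin 3))) : ℝ≥0∞ :=
  ⨅ π ∈ couplings μ, ∫⁻ x, coulomb x ∂π

end Vale.Agent.P121
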