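import Mathlib

/-!
Derivatives of the Coulomb kernel and generalities on maps with an invertible strict derivative.
-/

namespace Vale.Agent.P121

open MeasureTheory Set Filter Topology
open scoped RealInnerProductSpace NNReal ENNReal

abbrev E := EuclideanSpace ℝ (Fin 3)

theorem norm_strict {z : E} (hz : z ≠ 0) :
    HasStrictFDerivAt (fun y : E => ‖y‖) (‖z‖⁻¹ • innerSL ℝ z) z := by
  have h0 : ‖z‖ ≠ 0 := norm_ne_zero_iff.mpr hz
  have h := (hasStrictFDerivAt_norm_sq z).sqrt (pow_ne_zero 2 h0)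
  simp only [Real.sqrt_sq (norm_nonneg _)] at h
  refine h.congr_fderiv ?_
  ext v
  simp
  field_simp

/-- gradient of the Coulomb kernel -/
noncomputable def gr (z : E) : E := (-(‖z‖ ^ 3)⁻¹) • z

/-- Hessian of the Coulomb kernel -/
noncomputable def hes (z : E) : E →L[ℝ] E :=
  (-(‖z‖ ^ 3)⁻¹) • ContinuousLinearMap.id ℝ E + (3 * (‖z‖ ^ 5)⁻¹) • (innerSL ℝ z).smulRight z

theorem hes_apply (z v : E) :
    hes z v = (-(‖z‖ ^ 3)⁻¹) • v + (3 * (‖z‖ ^ 5)⁻¹ * ⟪z, v⟫) • z := by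
  simp [hes, smul_smul]

theorem inv_norm_deriv {z : E} (hz : z ≠ 0) :
    HasFDerivAt (fun y : E => ‖y‖⁻¹) (innerSL ℝ (gr z)) z := by
  have h0 : ‖z‖ ≠ 0 := norm_ne_zero_iff.mpr hz
  have h := ((hasStrictDerivAt_inv h0).comp_hasStrictFDerivAt z (norm_strict hz)).hasFDerivAt
  refine HasFDerivAt.congr_fderiv (f := fun y : E => ‖y‖⁻¹) h ?_
  ext v
  simp [gr, inner_smul_left]
  field_simp

theorem gr_strict {z : E} (hz : z ≠ 0) : HasStrictFDerivAt gr (hes z) z := by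
  have h0 : ‖z‖ ≠ 0 := norm_ne_zero_iff.mpr hz
  have h1 : HasStrictDerivAt (fun t : ℝ => -(t ^ 3)⁻¹) (3 * (‖z‖ ^ 4)⁻¹) ‖z‖ := by
    have h := (hasStrictDerivAt_zpow (-3) ‖z‖ (Or.inl h0)).neg
    have e1 : (fun t : ℝ => -(t ^ 3)⁻¹) = -fun x : ℝ => x ^ (-3 : ℤ) := by
      ext t
      simp [zpow_neg]
    rw [e1]
    refine h.congr_deriv ?_
    norm_num [zpow_neg]
  have h2 := h1.comp_hasStrictFDerivAt z (norm_strict hz)
  have h3 := h2.smul (hasStrictFDerivAt_id z)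
  refine HasStrictFDerivAt.congr_fderiv (f := gr) h3 ?_
  ext1 v
  rw [hes_apply]
  simp [smul_smul]
  congr 1
  field_simp

theorem nice_of_strict {f : E → E} {f' : E →L[ℝ] E} (hf : HasStrictFDerivAt f f' 0)
    (hinj : Function.Injective f') :
    ∃ s ∈ 𝓝 (0 : E), ContinuousOn f s ∧ InjOn f s ∧
      ∀ N : Set E, volume N = 0 → volume (s ∩ f ⁻¹' N) = 0 := by
  let e : E ≃L[ℝ] E := (LinearEquiv.ofInjectiveEndo f'.toLinearMap hinj).toContinuousLinearEquiv
  have he : (e : E →L[ℝ] E) = f' := by ext1 v; rfl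
  have hdet : f'.det ≠ 0 := by
    rw [← he]
    exact e.toLinearEquiv.isUnit_det'.ne_zero
  have hpos : 0 < |f'.det| / 2 := by positivity
  let m : ℝ≥0 := ⟨|f'.det| / 2, hpos.le⟩
  have hm : (m : ℝ≥0∞) < ENNReal.ofReal |f'.det| := by
    rw [← ENNReal.ofReal_coe_nnreal]
    apply (ENNReal.ofReal_lt_ofReal_iff (abs_pos.mpr hdet)).mpr
    change |f'.det| / 2 < _
    linarith [abs_pos.mpr hdet]
  obtain ⟨δ, hδ, hδ0⟩ :=
    ((mul_le_addHaar_image_of_lt_det (volume : Measure E) f' hm).and self_mem_nhdsWithin).exists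
  obtain ⟨s1, hs1, h1⟩ := hf.approximates_deriv_on_nhds (c := δ) (Or.inr hδ0)
  have hf2 : HasStrictFDerivAt f (e : E →L[ℝ] E) 0 := he ▸ hf
  have hs2 := (hf2.toOpenPartialHomeomorph f).open_source.mem_nhds
    hf2.mem_toOpenPartialHomeomorph_source
  refine ⟨s1 ∩ (hf2.toOpenPartialHomeomorph f).source, inter_mem hs1 hs2,
    h1.continuousOn.mono inter_subset_left,
    (hf2.toOpenPartialHomeomorph f).injOn.mono inter_subset_right, ?_⟩
  intro N hN
  have h3 := hδ (s1 ∩ (hf2.toOpenPartialHomeomorph f).source ∩ f ⁻¹' N) f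
    (h1.mono_set (inter_subset_left.trans inter_subset_left))
  have h4 : volume (f '' (s1 ∩ (hf2.toOpenPartialHomeomorph f).source ∩ f ⁻¹' N)) = 0 := by
    refine measure_mono_null ?_ hN
    rintro _ ⟨x, hx, rfl⟩
    exact hx.2
  rw [h4] at h3
  have hm0 : (m : ℝ≥0∞) ≠ 0 := by
    simp only [ne_eq, ENNReal.coe_eq_zero]
    intro h
    have : |f'.det| / 2 = 0 := congrArg (fun x : ℝ≥0 => (x : ℝ)) h
    linarith
  simpa [hm0] using h3

end Vale.Agent.P121
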