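import Mathlib
import Vale.Agent.P121.Defs
import Vale.Agent.P121.Deriv

/-!
The measure-theoretic part: a two-branch contact set admits no optimal Monge plan.
-/

namespace Vale.Agent.P121

open MeasureTheory Set Filter
open scoped ENNReal

/-- label triples that are permutations of `(0,1,2)` or of `(0,3,4)` -/
def IsBranch (k1 k2 k3 : Fin 5) : Prop :=
  (k1, k2, k3) ∈ ([(0, 1, 2), (0, 2, 1), (1, 0, 2), (1, 2, 0), (2, 0, 1), (2, 1, 0),
    (0, 3, 4), (0, 4, 3), (3, 0, 4), (3, 4, 0), (4, 0, 3), (4, 3, 0)] :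
      List (Fin 5 × Fin 5 × Fin 5))

instance (k1 k2 k3 : Fin 5) : Decidable (IsBranch k1 k2 k3) := by
  unfold IsBranch; infer_instance

theorem measurable_coulomb : Measurable coulomb := by
  unfold coulomb
  fun_prop

theorem lintegral_pot {μ : Measure E} {π : Measure (E × E × E)} (hπ : π ∈ couplings μ)
    {u : E → ℝ≥0∞} (hu : Measurable u) :
    ∫⁻ x, (u x.1 + u x.2.1 + u x.2.2) ∂π = 3 * ∫⁻ x, u x ∂μ := by
  obtain ⟨_, h1, h2, h3⟩ := hπ
  rw [lintegral_add_right _ (by fun_prop), lintegral_add_right _ (by fun_prop)]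
  have e1 : ∫⁻ x, u x.1 ∂π = ∫⁻ x, u x ∂μ := by
    rw [← h1, lintegral_map hu (by fun_prop)]
  have e2 : ∫⁻ x, u x.2.1 ∂π = ∫⁻ x, u x ∂μ := by
    rw [← h2, lintegral_map hu (by fun_prop)]
  have e3 : ∫⁻ x, u x.2.2 ∂π = ∫⁻ x, u x ∂μ := by
    rw [← h3, lintegral_map hu (by fun_prop)]
  rw [e1, e2, e3]
  ring

section

variable {A : Set E} {m : Fin 5 → E → E} {lam : Measure E}

/-- the marginal -/
noncomputable def mu (m : Fin 5 → E → E) (lam : Measure E) : Measure E :=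
  lam.map (m 0) + lam.map (m 0) + lam.map (m 1) + lam.map (m 2) + lam.map (m 3) + lam.map (m 4)

theorem map_image_eq (hA : MeasurableSet A) (hm : ∀ k, Measurable (m k))
    (hinj : ∀ k k', ∀ a ∈ A, ∀ a' ∈ A, m k a = m k' a' → k = k' ∧ a = a')
    (hlamA : lam Aᶜ = 0) {S : Set E} (hS : MeasurableSet S) (hSA : S ⊆ A) (k l : Fin 5) :
    lam.map (m l) (m k '' S) = if l = k then lam S else 0 := by
  have hmeas : MeasurableSet (m k '' S) :=
    hS.image_of_measurable_injOn (hm k) (fun a ha a' ha' h => (hinj k k a (hSA ha) a' (hSA ha') h).2)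
  rw [Measure.map_apply (hm l) hmeas]
  have hae : ∀ᵐ a ∂lam, a ∈ A := by
    rw [ae_iff]; exact hlamA
  split_ifs with h
  · subst h
    refine measure_congr ?_
    filter_upwards [hae] with a ha
    apply propext
    constructor
    · rintro ⟨s, hs, h⟩
      rw [← (hinj l l s (hSA hs) a ha h).2]; exact hs
    · intro hs
      exact ⟨a, hs, rfl⟩
  · refine measure_mono_null ?_ hlamA
    rintro a ⟨s, hs, h'⟩ ha
    exact h (hinj k l s (hSA hs) a ha h').1.symm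

theorem mu_image (hA : MeasurableSet A) (hm : ∀ k, Measurable (m k))
    (hinj : ∀ k k', ∀ a ∈ A, ∀ a' ∈ A, m k a = m k' a' → k = k' ∧ a = a')
    (hlamA : lam Aᶜ = 0) {S : Set E} (hS : MeasurableSet S) (hSA : S ⊆ A) (k : Fin 5)
    (hk : k ≠ 0) : mu m lam (m k '' S) = lam S := by
  simp only [mu, Measure.add_apply, map_image_eq hA hm hinj hlamA hS hSA]
  fin_cases k <;> simp at hk ⊢

theorem counting [IsFiniteMeasure lam] (hA : MeasurableSet A) (hm : ∀ k, Measurable (m k))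
    (hm0 : ∀ a, m 0 a = a)
    (hinj : ∀ k k', ∀ a ∈ A, ∀ a' ∈ A, m k a = m k' a' → k = k' ∧ a = a')
    (hlamA : lam Aᶜ = 0) {T2 T3 : E → E} (h2 : Measurable T2) (h3 : Measurable T3)
    (hT2 : (mu m lam).map T2 = mu m lam) (hT3 : (mu m lam).map T3 = mu m lam)
    (hc : ∀ᵐ x ∂(mu m lam), ∃ a ∈ A, ∃ k1 k2 k3, IsBranch k1 k2 k3 ∧ x = m k1 a ∧
      T2 x = m k2 a ∧ T3 x = m k3 a)
    (i j i' j' : Fin 5) (hi : i ≠ 0) (hj : j ≠ 0) (hii : i ≠ i') (hij : i ≠ j') (hji : j ≠ i')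
    (hjj : j ≠ j')
    (H1 : ∀ k1 k3, IsBranch k1 i k3 → (k1 = 0 ∧ k3 = j) ∨ (k1 = j ∧ k3 = 0))
    (H2 : ∀ k1 k2, IsBranch k1 k2 i → (k1 = 0 ∧ k2 = j) ∨ (k1 = j ∧ k2 = 0)) :
    lam (A ∩ T2 ⁻¹' (m i' '' A ∪ m j' '' A)) = 0 := by
  have himg : ∀ k, ∀ S ⊆ A, MeasurableSet S → MeasurableSet (m k '' S) := fun k S hSA hS =>
    hS.image_of_measurable_injOn (hm k) (fun a ha a' ha' h => (hinj k k a (hSA ha) a' (hSA ha') h).2)
  set S := A ∩ T2 ⁻¹' (m i' '' A ∪ m j' '' A) with hSdef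
  have hSA : S ⊆ A := inter_subset_left
  have hS : MeasurableSet S :=
    hA.inter (h2 ((himg i' A le_rfl hA).union (himg j' A le_rfl hA)))
  have hP := himg i S hSA hS
  have hQ := himg j S hSA hS
  have e1 : mu m lam (T2 ⁻¹' (m i '' S)) = lam S := by
    rw [← Measure.map_apply h2 hP, hT2, mu_image hA hm hinj hlamA hS hSA i hi]
  have e2 : mu m lam (T3 ⁻¹' (m i '' S)) = lam S := by
    rw [← Measure.map_apply h3 hP, hT3, mu_image hA hm hinj hlamA hS hSA i hi]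
  have e3 : mu m lam (m j '' S) = lam S := mu_image hA hm hinj hlamA hS hSA j hj
  have hkey : ∀ᵐ x ∂(mu m lam), (x ∈ T2 ⁻¹' (m i '' S) → x ∈ m j '' S ∧ x ∉ T3 ⁻¹' (m i '' S)) ∧
      (x ∈ T3 ⁻¹' (m i '' S) → x ∈ m j '' S) := by
    filter_upwards [hc] with x hx
    obtain ⟨a, ha, k1, k2, k3, hb, e1, e2, e3⟩ := hx
    have hnot : ∀ l, l ≠ i' → l ≠ j' → k1 = 0 → k2 = l → a ∉ S := by
      rintro l hl1 hl2 rfl rfl haS
      have hxa : x = a := by rw [e1, hm0]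
      have h4 : T2 a ∈ m i' '' A ∪ m j' '' A := haS.2
      rw [← hxa, e2] at h4
      rcases h4 with ⟨s, hs, h⟩ | ⟨s, hs, h⟩
      · exact hl1 (hinj _ _ s hs a ha h).1.symm
      · exact hl2 (hinj _ _ s hs a ha h).1.symm
    constructor
    · rintro ⟨s, hs, h⟩
      rw [e2] at h
      obtain ⟨rfl, rfl⟩ := hinj _ _ s (hSA hs) a ha h
      rcases H1 _ _ hb with ⟨h4, _⟩ | ⟨h4, h5⟩
      · exact absurd hs (hnot i hii hij h4 rfl)
      · refine ⟨⟨s, hs, by rw [e1, h4]⟩, ?_⟩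
        rintro ⟨s', hs', h'⟩
        rw [e3, h5] at h'
        exact hi (hinj _ _ s' (hSA hs') s ha h').1
    · rintro ⟨s, hs, h⟩
      rw [e3] at h
      obtain ⟨rfl, rfl⟩ := hinj _ _ s (hSA hs) a ha h
      rcases H2 _ _ hb with ⟨h4, h5⟩ | ⟨h4, _⟩
      · exact absurd hs (hnot j hji hjj h4 h5)
      · exact ⟨s, hs, by rw [e1, h4]⟩
  have hdisj : AEDisjoint (mu m lam) (T2 ⁻¹' (m i '' S)) (T3 ⁻¹' (m i '' S)) := by
    unfold AEDisjoint
    rw [measure_eq_zero_iff_ae_notMem]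
    filter_upwards [hkey] with x hx hx'
    exact (hx.1 hx'.1).2 hx'.2
  have hsub : (T2 ⁻¹' (m i '' S) ∪ T3 ⁻¹' (m i '' S) : Set E) ≤ᵐ[mu m lam] m j '' S := by
    filter_upwards [hkey] with x hx hx'
    rcases hx' with h | h
    · exact (hx.1 h).1
    · exact hx.2 h
  have hle := measure_mono_ae hsub
  rw [measure_union₀ (h3 hP).nullMeasurableSet hdisj, e1, e2, e3] at hle
  have hfin : lam S ≠ ∞ := measure_ne_top _ _
  have : lam S + lam S ≤ lam S + 0 := by simpa using hle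
  simpa using (ENNReal.add_le_add_iff_left hfin).mp this

theorem abstract_no_monge (hA : MeasurableSet A) (hm : ∀ k, Measurable (m k))
    (hm0 : ∀ a, m 0 a = a)
    (hinj : ∀ k k', ∀ a ∈ A, ∀ a' ∈ A, m k a = m k' a' → k = k' ∧ a = a')
    (hlam : lam univ = 1 / 6) (hlamA : lam Aᶜ = 0)
    {u : E → ℝ≥0∞} (hu : Measurable u) (hub : ∀ x, u x ≤ 3)
    (hle : ∀ k1 k2 k3, ∀ a1 ∈ A, ∀ a2 ∈ A, ∀ a3 ∈ A,
      u (m k1 a1) + u (m k2 a2) + u (m k3 a3) ≤ coulomb (m k1 a1, m k2 a2, m k3 a3))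
    (heq : ∀ k1 k2 k3, ∀ a1 ∈ A, ∀ a2 ∈ A, ∀ a3 ∈ A,
      u (m k1 a1) + u (m k2 a2) + u (m k3 a3) = coulomb (m k1 a1, m k2 a2, m k3 a3) →
        IsBranch k1 k2 k3 ∧ a1 = a2 ∧ a2 = a3)
    (hcon : ∀ k1 k2 k3, IsBranch k1 k2 k3 → ∀ a ∈ A,
      u (m k1 a) + u (m k2 a) + u (m k3 a) = coulomb (m k1 a, m k2 a, m k3 a)) :
    IsProbabilityMeasure (mu m lam) ∧ kantorovich (mu m lam) < ∞ ∧
      ∀ T2 T3 : E → E, Measurable T2 → Measurable T3 → (mu m lam).map T2 = mu m lam →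
        (mu m lam).map T3 = mu m lam →
        ∫⁻ x, coulomb (x, T2 x, T3 x) ∂(mu m lam) ≠ kantorovich (mu m lam) := by
  have hfinlam : IsFiniteMeasure lam := ⟨by rw [hlam]; simp⟩
  have six : (1 / 6 + 1 / 6 + 1 / 6 + 1 / 6 + 1 / 6 + 1 / 6 : ℝ≥0∞) = 1 := by
    have : (1 / 6 + 1 / 6 + 1 / 6 + 1 / 6 + 1 / 6 + 1 / 6 : ℝ≥0∞) = 6 * (1 / 6) := by ring
    rw [this, one_div, ENNReal.mul_inv_cancel (by norm_num) (by norm_num)]
  have hprob : IsProbabilityMeasure (mu m lam) := by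
    constructor
    simp only [mu, Measure.add_apply, Measure.map_apply (hm _) MeasurableSet.univ, preimage_univ,
      hlam]
    exact six
  have hae : ∀ᵐ a ∂lam, a ∈ A := by
    rw [ae_iff]; exact hlamA
  let t : Fin 5 → Fin 5 → Fin 5 → E → E × E × E := fun k1 k2 k3 a => (m k1 a, m k2 a, m k3 a)
  have ht : ∀ k1 k2 k3, Measurable (t k1 k2 k3) := fun k1 k2 k3 =>
    (hm k1).prodMk ((hm k2).prodMk (hm k3))
  let π0 : Measure (E × E × E) := lam.map (t 0 1 2) + lam.map (t 1 2 0) + lam.map (t 2 0 1)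
    + lam.map (t 0 3 4) + lam.map (t 3 4 0) + lam.map (t 4 0 3)
  have hf1 : Measurable (fun x : E × E × E => x.1) := by fun_prop
  have hf2 : Measurable (fun x : E × E × E => x.2.1) := by fun_prop
  have hf3 : Measurable (fun x : E × E × E => x.2.2) := by fun_prop
  have hπ0 : π0 ∈ couplings (mu m lam) := by
    refine ⟨⟨?_⟩, ?_, ?_, ?_⟩
    · simp only [π0, Measure.add_apply, Measure.map_apply (ht _ _ _) MeasurableSet.univ,
        preimage_univ, hlam]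
      exact six
    · simp only [π0, Measure.map_add _ _ hf1, Measure.map_map hf1 (ht _ _ _), mu]
      change lam.map (m 0) + lam.map (m 1) + lam.map (m 2) + lam.map (m 0) + lam.map (m 3)
        + lam.map (m 4) = _
      abel
    · simp only [π0, Measure.map_add _ _ hf2, Measure.map_map hf2 (ht _ _ _), mu]
      change lam.map (m 1) + lam.map (m 2) + lam.map (m 0) + lam.map (m 3) + lam.map (m 4)
        + lam.map (m 0) = _
      abel
    · simp only [π0, Measure.map_add _ _ hf3, Measure.map_map hf3 (ht _ _ _), mu]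
      change lam.map (m 2) + lam.map (m 0) + lam.map (m 1) + lam.map (m 4) + lam.map (m 0)
        + lam.map (m 3) = _
      abel
  have hpot : Measurable (fun x : E × E × E => u x.1 + u x.2.1 + u x.2.2) := by fun_prop
  have hone : ∀ k1 k2 k3, IsBranch k1 k2 k3 → ∫⁻ x, coulomb x ∂(lam.map (t k1 k2 k3))
      = ∫⁻ x, (u x.1 + u x.2.1 + u x.2.2) ∂(lam.map (t k1 k2 k3)) := by
    intro k1 k2 k3 hb
    rw [lintegral_map measurable_coulomb (ht _ _ _), lintegral_map hpot (ht _ _ _)]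
    refine lintegral_congr_ae ?_
    filter_upwards [hae] with a ha
    exact (hcon k1 k2 k3 hb a ha).symm
  have hcost : ∫⁻ x, coulomb x ∂π0 = 3 * ∫⁻ x, u x ∂(mu m lam) := by
    rw [← lintegral_pot hπ0 hu]
    simp only [π0, lintegral_add_measure]
    rw [hone 0 1 2 (by decide), hone 1 2 0 (by decide), hone 2 0 1 (by decide),
      hone 0 3 4 (by decide), hone 3 4 0 (by decide), hone 4 0 3 (by decide)]
  have hfin : 3 * ∫⁻ x, u x ∂(mu m lam) < ∞ := by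
    refine ENNReal.mul_lt_top (by norm_num) ?_
    calc ∫⁻ x, u x ∂(mu m lam) ≤ ∫⁻ _, 3 ∂(mu m lam) := lintegral_mono hub
      _ < ∞ := by simp
  have hK : kantorovich (mu m lam) ≤ 3 * ∫⁻ x, u x ∂(mu m lam) := by
    rw [← hcost]
    exact iInf₂_le π0 hπ0
  refine ⟨hprob, hK.trans_lt hfin, ?_⟩
  intro T2 T3 h2 h3 hT2 hT3 hopt
  have himg : ∀ k, MeasurableSet (m k '' A) := fun k =>
    hA.image_of_measurable_injOn (hm k) (fun a ha a' ha' h => (hinj k k a ha a' ha' h).2)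
  have hKm : MeasurableSet (⋃ k, m k '' A) := MeasurableSet.iUnion himg
  have hK1 : ∀ᵐ x ∂(mu m lam), x ∈ ⋃ k, m k '' A := by
    have : ∀ k, ∀ᵐ x ∂(lam.map (m k)), x ∈ ⋃ k, m k '' A := by
      intro k
      refine (ae_map_iff (p := fun x => x ∈ ⋃ k, m k '' A) (hm k).aemeasurable hKm).mpr ?_
      filter_upwards [hae] with a ha
      exact mem_iUnion.mpr ⟨k, a, ha, rfl⟩
    simp only [mu, ae_add_measure_iff]
    exact ⟨⟨⟨⟨⟨this 0, this 0⟩, this 1⟩, this 2⟩, this 3⟩, this 4⟩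
  have hK2 : ∀ᵐ x ∂(mu m lam), T2 x ∈ ⋃ k, m k '' A := by
    have := hK1
    rw [← hT2] at this
    exact ae_of_ae_map h2.aemeasurable this
  have hK3 : ∀ᵐ x ∂(mu m lam), T3 x ∈ ⋃ k, m k '' A := by
    have := hK1
    rw [← hT3] at this
    exact ae_of_ae_map h3.aemeasurable this
  have hpotT : ∫⁻ x, (u x + u (T2 x) + u (T3 x)) ∂(mu m lam) = 3 * ∫⁻ x, u x ∂(mu m lam) := by
    rw [lintegral_add_right _ (show Measurable fun x => u (T3 x) from hu.comp h3),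
      lintegral_add_right _ (show Measurable fun x => u (T2 x) from hu.comp h2)]
    have e2 : ∫⁻ x, u (T2 x) ∂(mu m lam) = ∫⁻ x, u x ∂(mu m lam) := by
      conv_rhs => rw [← hT2]
      rw [lintegral_map hu h2]
    have e3 : ∫⁻ x, u (T3 x) ∂(mu m lam) = ∫⁻ x, u x ∂(mu m lam) := by
      conv_rhs => rw [← hT3]
      rw [lintegral_map hu h3]
    rw [e2, e3]
    ring
  have hle' : (fun x => u x + u (T2 x) + u (T3 x)) ≤ᵐ[mu m lam]
      fun x => coulomb (x, T2 x, T3 x) := by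
    filter_upwards [hK1, hK2, hK3] with x h1 h2 h3
    obtain ⟨k1, a1, ha1, e1⟩ := mem_iUnion.mp h1
    obtain ⟨k2, a2, ha2, e2⟩ := mem_iUnion.mp h2
    obtain ⟨k3, a3, ha3, e3⟩ := mem_iUnion.mp h3
    have := hle k1 k2 k3 a1 ha1 a2 ha2 a3 ha3
    rwa [e1, e2, e3] at this
  have heq' := ae_eq_of_ae_le_of_lintegral_le hle' (by rw [hpotT]; exact hfin.ne)
    (measurable_coulomb.comp (measurable_id.prodMk (h2.prodMk h3))).aemeasurable
    (by rw [hpotT, hopt]; exact hK)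
  have hc : ∀ᵐ x ∂(mu m lam), ∃ a ∈ A, ∃ k1 k2 k3, IsBranch k1 k2 k3 ∧ x = m k1 a ∧
      T2 x = m k2 a ∧ T3 x = m k3 a := by
    filter_upwards [hK1, hK2, hK3, heq'] with x h1 h2 h3 h4
    obtain ⟨k1, a1, ha1, e1⟩ := mem_iUnion.mp h1
    obtain ⟨k2, a2, ha2, e2⟩ := mem_iUnion.mp h2
    obtain ⟨k3, a3, ha3, e3⟩ := mem_iUnion.mp h3
    obtain ⟨hb, rfl, rfl⟩ := heq k1 k2 k3 a1 ha1 a2 ha2 a3 ha3 (by rw [e1, e2, e3]; exact h4)
    exact ⟨a1, ha1, k1, k2, k3, hb, e1.symm, e2.symm, e3.symm⟩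
  have z1 := counting hA hm hm0 hinj hlamA h2 h3 hT2 hT3 hc 1 2 3 4 (by decide) (by decide)
    (by decide) (by decide) (by decide) (by decide) (by decide) (by decide)
  have z2 := counting hA hm hm0 hinj hlamA h2 h3 hT2 hT3 hc 3 4 1 2 (by decide) (by decide)
    (by decide) (by decide) (by decide) (by decide) (by decide) (by decide)
  have hc' : ∀ᵐ x ∂lam, ∃ a ∈ A, ∃ k1 k2 k3, IsBranch k1 k2 k3 ∧ x = m k1 a ∧
      T2 x = m k2 a ∧ T3 x = m k3 a := by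
    have h0 : lam.map (m 0) = lam := by
      have : m 0 = id := funext hm0
      rw [this, Measure.map_id]
    simp only [mu, ae_add_measure_iff, h0] at hc
    exact hc.1.1.1.1.1
  have hfalse : ∀ᵐ x ∂lam, False := by
    filter_upwards [hae, hc', measure_eq_zero_iff_ae_notMem.mp z1,
      measure_eq_zero_iff_ae_notMem.mp z2] with x hx h1 h4 h5
    obtain ⟨a, ha, k1, k2, k3, hb, e1, e2, _⟩ := h1
    have hk1 : k1 = 0 := (hinj 0 k1 x hx a ha (by rw [hm0]; exact e1)).1.symm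
    subst hk1
    have hk2 : k2 = 1 ∨ k2 = 2 ∨ k2 = 3 ∨ k2 = 4 :=
      (by decide : ∀ k2 k3 : Fin 5, IsBranch 0 k2 k3 → k2 = 1 ∨ k2 = 2 ∨ k2 = 3 ∨ k2 = 4) k2 k3 hb
    rcases hk2 with rfl | rfl | rfl | rfl
    · exact h5 ⟨hx, Or.inl ⟨a, ha, e2.symm⟩⟩
    · exact h5 ⟨hx, Or.inr ⟨a, ha, e2.symm⟩⟩
    · exact h4 ⟨hx, Or.inl ⟨a, ha, e2.symm⟩⟩
    · exact h4 ⟨hx, Or.inr ⟨a, ha, e2.symm⟩⟩
  rw [eventually_false_iff_eq_bot, ae_eq_bot] at hfalse
  rw [hfalse] at hlam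
  simp at hlam
  exact absurd hlam.symm (by norm_num)

end

end Vale.Agent.P121
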