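import Mathlib
import Vale.Agent.P121.Deriv

/-!
The local contact manifold near the collinear configuration `(0, p, -p)`.
-/

namespace Vale.Agent.P121

open MeasureTheory Set Filter Topology Metric
open scoped RealInnerProductSpace NNReal ENNReal

/-- cost minus the two prescribed quadratic potentials -/
noncomputable def Fp (p a b c : E) : ℝ :=
  ‖a - b‖⁻¹ + ‖a - c‖⁻¹ + ‖b - c‖⁻¹ + 2 * ‖a‖ ^ 2 - 5 / 4 * ⟪p, c + p⟫ + ‖c + p‖ ^ 2

noncomputable def Psi (p : E) (w : E × E × E) : E × E :=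
  (gr (w.1 - w.2.1) + gr (w.1 - w.2.2) + (4 : ℝ) • w.1,
    -gr (w.1 - w.2.2) - gr (w.2.1 - w.2.2) - (5 / 4 : ℝ) • p + (2 : ℝ) • (w.2.2 + p))

noncomputable def cA : E × E × E →L[ℝ] E := ContinuousLinearMap.fst ℝ E (E × E)
noncomputable def cB : E × E × E →L[ℝ] E :=
  (ContinuousLinearMap.fst ℝ E E).comp (ContinuousLinearMap.snd ℝ E (E × E))
noncomputable def cC : E × E × E →L[ℝ] E :=
  (ContinuousLinearMap.snd ℝ E E).comp (ContinuousLinearMap.snd ℝ E (E × E))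

noncomputable def Lin (p : E) : E × E × E →L[ℝ] E × E :=
  ((hes (-p)).comp (cA - cB) + (hes p).comp (cA - cC) + (4 : ℝ) • cA).prod
    (-(hes p).comp (cA - cC) - (hes ((2 : ℝ) • p)).comp (cB - cC) + (2 : ℝ) • cC)

noncomputable def MM (p v : E) : E := (3 * ⟪p, v⟫) • p - v

theorem hes_p {p : E} (hp : ‖p‖ = 1) (v : E) : hes p v = MM p v := by
  rw [hes_apply, hp, MM]; simp; abel

theorem hes_neg_p {p : E} (hp : ‖p‖ = 1) (v : E) : hes (-p) v = MM p v := by
  rw [hes_apply, norm_neg, hp, MM]; simp; abel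

theorem hes_two_p {p : E} (hp : ‖p‖ = 1) (v : E) :
    hes ((2 : ℝ) • p) v = (1 / 8 : ℝ) • MM p v := by
  rw [hes_apply, norm_smul, hp, MM, inner_smul_left]
  simp only [Real.norm_ofNat, mul_one, smul_smul, smul_sub, conj_trivial]
  module

theorem Lin_apply {p : E} (hp : ‖p‖ = 1) (a b c : E) :
    Lin p (a, b, c) = (MM p (a - b) + MM p (a - c) + (4 : ℝ) • a,
      -MM p (a - c) - (1 / 8 : ℝ) • MM p (b - c) + (2 : ℝ) • c) := by
  simp only [Lin, ContinuousLinearMap.prod_apply, add_apply,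
    sub_apply, ContinuousLinearMap.comp_apply, neg_apply,
    smul_apply, hes_p hp, hes_neg_p hp, hes_two_p hp]
  rfl

theorem Psi_base {p : E} (hp : ‖p‖ = 1) : Psi p (0, p, -p) = 0 := by
  have h2 : p - -p = (2 : ℝ) • p := by module
  simp only [Psi, gr, zero_sub, neg_neg, norm_neg, hp, h2, norm_smul, Real.norm_ofNat,
    smul_smul, Prod.mk_eq_zero]
  constructor <;> module

theorem Psi_strict {p : E} (hp : ‖p‖ = 1) : HasStrictFDerivAt (Psi p) (Lin p) (0, p, -p) := by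
  have hp0 : p ≠ 0 := by rintro rfl; simp at hp
  have e1 : (cA - cB) (0, p, -p) = -p := by simp [cA, cB]
  have e2 : (cA - cC) (0, p, -p) = p := by simp [cA, cC]
  have e3 : (cB - cC) (0, p, -p) = (2 : ℝ) • p := by simp [cB, cC]; module
  have h1 : HasStrictFDerivAt (fun w => gr ((cA - cB) w)) ((hes (-p)).comp (cA - cB))
      (0, p, -p) := by
    have := gr_strict (z := (cA - cB) (0, p, -p)) (by rw [e1]; simpa using hp0)
    have h := this.comp (0, p, -p) (cA - cB).hasStrictFDerivAt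
    rwa [e1] at h
  have h2 : HasStrictFDerivAt (fun w => gr ((cA - cC) w)) ((hes p).comp (cA - cC))
      (0, p, -p) := by
    have := gr_strict (z := (cA - cC) (0, p, -p)) (by rw [e2]; simpa using hp0)
    have h := this.comp (0, p, -p) (cA - cC).hasStrictFDerivAt
    rwa [e2] at h
  have h3 : HasStrictFDerivAt (fun w => gr ((cB - cC) w)) ((hes ((2 : ℝ) • p)).comp (cB - cC))
      (0, p, -p) := by
    have := gr_strict (z := (cB - cC) (0, p, -p)) (by rw [e3]; simpa using hp0)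
    have h := this.comp (0, p, -p) (cB - cC).hasStrictFDerivAt
    rwa [e3] at h
  have h4 := ((4 : ℝ) • cA).hasStrictFDerivAt (x := (0, p, -p))
  have h5 := ((2 : ℝ) • cC).hasStrictFDerivAt (x := (0, p, -p))
  have h6 := ((h1.add h2).add h4).prodMk
    (((h2.neg.sub h3).add h5).add_const ((2 : ℝ) • p - (5 / 4 : ℝ) • p))
  refine HasStrictFDerivAt.congr_of_eventuallyEq h6 (Eventually.of_forall fun w => ?_)
  simp only [Psi, cA, cB, cC, Pi.add_apply, Pi.sub_apply, Pi.neg_apply,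
    sub_apply, ContinuousLinearMap.comp_apply,
    smul_apply, ContinuousLinearMap.coe_fst', ContinuousLinearMap.coe_snd',
    Prod.mk.injEq, true_and]
  module

theorem eq_zero_of_comb {p v : E} (hp : ‖p‖ = 1) {α γ : ℝ} (h : (α * ⟪p, v⟫) • p + γ • v = 0)
    (h1 : γ ≠ 0) (h2 : α + γ ≠ 0) : v = 0 := by
  have h3 : ⟪p, (α * ⟪p, v⟫) • p + γ • v⟫ = 0 := by rw [h, inner_zero_right]
  rw [inner_add_right, inner_smul_right, inner_smul_right, real_inner_self_eq_norm_sq, hp] at h3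
  have h4 : ⟪p, v⟫ = 0 := by
    have : (α + γ) * ⟪p, v⟫ = 0 := by linarith
    exact (mul_eq_zero.mp this).resolve_left h2
  rw [h4] at h
  simpa [h1] using h

theorem Lin_pd {p : E} (hp : ‖p‖ = 1) (u v : E) :
    (‖u‖ ^ 2 + ‖v‖ ^ 2) / 4 ≤ ⟪(Lin p (u, 0, v)).1, u⟫ + ⟪(Lin p (u, 0, v)).2, v⟫ := by
  rw [Lin_apply hp]
  simp only [MM, inner_add_left, inner_sub_left, inner_sub_right, inner_smul_left, inner_neg_left,
    conj_trivial, sub_zero, zero_sub, inner_neg_right, real_inner_self_eq_norm_sq,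
    real_inner_comm u v]
  have h1 := abs_real_inner_le_norm u v
  have h2 := neg_abs_le ⟪u, v⟫
  nlinarith [sq_nonneg (⟪p, u⟫ - ⟪p, v⟫ / 2), sq_nonneg (⟪p, v⟫), sq_nonneg (7 * ‖u‖ - 4 * ‖v‖),
    sq_nonneg ‖v‖]

theorem Lin_inj0 {p : E} (hp : ‖p‖ = 1) {b c : E} (h : Lin p (0, b, c) = 0) : b = 0 ∧ c = 0 := by
  rw [Lin_apply hp, Prod.mk_eq_zero] at h
  obtain ⟨h1, h2⟩ := h
  simp only [MM, inner_sub_right, inner_zero_right] at h1 h2
  have h3 : b + c = 0 := by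
    refine eq_zero_of_comb hp (α := -3) (γ := 1) ?_ (by norm_num) (by norm_num)
    rw [← h1, inner_add_right]; module
  have h4 : b = -c := eq_neg_of_add_eq_zero_left h3
  subst h4
  have h5 : c = 0 := by
    refine eq_zero_of_comb hp (α := 15 / 4) (γ := 3 / 4) ?_ (by norm_num) (by norm_num)
    rw [← h2, inner_neg_right]; module
  simp [h5]

theorem Lin_inj1 {p : E} (hp : ‖p‖ = 1) {a c : E} (h : Lin p (a, 0, c) = 0) : a = 0 := by
  have := Lin_pd hp a c
  rw [h] at this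
  simp only [Prod.fst_zero, Prod.snd_zero, inner_zero_left, add_zero] at this
  have h2 : ‖a‖ ^ 2 = 0 := by nlinarith [sq_nonneg ‖a‖, sq_nonneg ‖c‖]
  simpa using h2

theorem Lin_inj2 {p : E} (hp : ‖p‖ = 1) {a b : E} (h : Lin p (a, b, 0) = 0) : a = 0 := by
  rw [Lin_apply hp, Prod.mk_eq_zero] at h
  obtain ⟨h1, h2⟩ := h
  simp only [MM, inner_sub_right, inner_zero_right] at h1 h2
  refine eq_zero_of_comb hp (α := 30) (γ := -6) ?_ (by norm_num) (by norm_num)
  have : (30 * ⟪p, a⟫) • p + (-6 : ℝ) • a =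
      ((3 * (⟪p, a⟫ - ⟪p, b⟫)) • p - (a - b) + ((3 * (⟪p, a⟫ - 0)) • p - (a - 0)) + (4 : ℝ) • a)
      - (8 : ℝ) • (-((3 * (⟪p, a⟫ - 0)) • p - (a - 0))
        - (1 / 8 : ℝ) • ((3 * (⟪p, b⟫ - 0)) • p - (b - 0)) + (2 : ℝ) • (0 : E)) := by
    module
  rw [this, h1, h2]
  simp

theorem line_deriv (p a b c u v : E) (s : ℝ) (h1 : a + s • u - b ≠ 0)
    (h2 : a + s • u - (c + s • v) ≠ 0) (h3 : b - (c + s • v) ≠ 0) :
    HasDerivAt (fun t : ℝ => Fp p (a + t • u) b (c + t • v))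
      (⟪(Psi p (a + s • u, b, c + s • v)).1, u⟫ + ⟪(Psi p (a + s • u, b, c + s • v)).2, v⟫) s := by
  have da : HasDerivAt (fun t : ℝ => a + t • u) u s := by
    simpa using ((hasDerivAt_id s).smul_const u).const_add a
  have dc : HasDerivAt (fun t : ℝ => c + t • v) v s := by
    simpa using ((hasDerivAt_id s).smul_const v).const_add c
  have d1 := (inv_norm_deriv h1).comp_hasDerivAt s (da.sub_const b)
  have d2 := (inv_norm_deriv h2).comp_hasDerivAt s (da.sub dc)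
  have d3 := (inv_norm_deriv h3).comp_hasDerivAt s (dc.const_sub b)
  have d4 := da.norm_sq.const_mul 2
  have d5 := ((hasDerivAt_const s p).inner ℝ (dc.add_const p)).const_mul (5 / 4)
  have d6 := (dc.add_const p).norm_sq
  have d := ((((d1.add d2).add d3).add d4).sub d5).add d6
  refine HasDerivAt.congr_deriv (f := fun t : ℝ => Fp p (a + t • u) b (c + t • v)) d ?_
  simp only [Psi, innerSL_apply_apply, inner_add_left, inner_sub_left, inner_sub_right,
    inner_neg_left, inner_neg_right, inner_smul_left, conj_trivial, inner_zero_left]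
  ring

theorem final_ineq {t x y r1 r2 l1 l2 : ℝ} (ht : 0 < t) (hpos : 0 < x ^ 2 + y ^ 2)
    (hpd : (x ^ 2 + y ^ 2) / 4 ≤ l1 + l2) (h1 : -(1 / 16 * (t * (x + y)) * x) ≤ r1)
    (h2 : -(1 / 16 * (t * (x + y)) * y) ≤ r2) : 0 < r1 + t * l1 + (r2 + t * l2) := by
  have h3 := mul_le_mul_of_nonneg_left hpd ht.le
  have h4 := mul_pos ht hpos
  have h5 := mul_nonneg ht.le (sq_nonneg (x - y))
  nlinarith

theorem grad_pos {p a b c u v : E} {t : ℝ} (hp : ‖p‖ = 1) (ht : 0 < t) (h0 : Psi p (a, b, c) = 0)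
    (happ : ‖Psi p (a + t • u, b, c + t • v) - Psi p (a, b, c)
      - Lin p ((a + t • u, b, c + t • v) - (a, b, c))‖
      ≤ ((1 / 16 : ℝ≥0) : ℝ) * ‖((a + t • u, b, c + t • v) : E × E × E) - (a, b, c)‖)
    (hne : ¬ (u = 0 ∧ v = 0)) :
    0 < ⟪(Psi p (a + t • u, b, c + t • v)).1, u⟫ + ⟪(Psi p (a + t • u, b, c + t • v)).2, v⟫ := by
  have e1 : ((a + t • u, b, c + t • v) : E × E × E) - (a, b, c) = t • (u, 0, v) := by
    simp
  rw [h0, sub_zero, e1, map_smul, norm_smul, Real.norm_of_nonneg ht.le] at happ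
  obtain ⟨R, hR⟩ : ∃ R, R = Psi p (a + t • u, b, c + t • v) - t • Lin p (u, 0, v) := ⟨_, rfl⟩
  have e2 : Psi p (a + t • u, b, c + t • v) = R + t • Lin p (u, 0, v) := by rw [hR]; abel
  rw [← hR] at happ
  have hpd := Lin_pd hp u v
  have hn : ‖((u, 0, v) : E × E × E)‖ ≤ ‖u‖ + ‖v‖ := by
    simp only [Prod.norm_def, norm_zero, sup_le_iff]
    exact ⟨by linarith [norm_nonneg v], by positivity, by linarith [norm_nonneg u]⟩
  have hR0 : ‖R‖ ≤ 1 / 16 * (t * (‖u‖ + ‖v‖)) := by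
    refine happ.trans ?_
    push_cast
    gcongr
  have hR1 : ‖R.1‖ ≤ 1 / 16 * (t * (‖u‖ + ‖v‖)) := (norm_fst_le R).trans hR0
  have hR2 : ‖R.2‖ ≤ 1 / 16 * (t * (‖u‖ + ‖v‖)) := (norm_snd_le R).trans hR0
  have hi1 : -(1 / 16 * (t * (‖u‖ + ‖v‖)) * ‖u‖) ≤ ⟪R.1, u⟫ := by
    have := abs_real_inner_le_norm R.1 u
    have h2 := neg_abs_le ⟪R.1, u⟫
    have h3 := mul_le_mul_of_nonneg_right hR1 (norm_nonneg u)
    linarith
  have hi2 : -(1 / 16 * (t * (‖u‖ + ‖v‖)) * ‖v‖) ≤ ⟪R.2, v⟫ := by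
    have := abs_real_inner_le_norm R.2 v
    have h2 := neg_abs_le ⟪R.2, v⟫
    have h3 := mul_le_mul_of_nonneg_right hR2 (norm_nonneg v)
    linarith
  have hpos : 0 < ‖u‖ ^ 2 + ‖v‖ ^ 2 := by
    by_cases hu : u = 0
    · have hv : v ≠ 0 := fun h => hne ⟨hu, h⟩
      have := norm_pos_iff.mpr hv
      positivity
    · have := norm_pos_iff.mpr hu
      positivity
  rw [e2]
  simp only [Prod.fst_add, Prod.snd_add, Prod.smul_fst, Prod.smul_snd, inner_add_left,
    inner_smul_left, conj_trivial]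
  exact final_ineq ht hpos hpd hi1 hi2

theorem strict_min {p : E} (hp : ‖p‖ = 1) :
    ∃ δ : ℝ, 0 < δ ∧ ∀ a b c a' c' : E, ‖a‖ < δ → ‖b - p‖ < δ → ‖c + p‖ < δ → ‖a'‖ < δ →
      ‖c' + p‖ < δ → Psi p (a, b, c) = 0 → (a', c') ≠ (a, c) → Fp p a b c < Fp p a' b c' := by
  obtain ⟨s, hs, happ⟩ := (Psi_strict hp).approximates_deriv_on_nhds (c := 1 / 16)
    (Or.inr (by norm_num))
  obtain ⟨δ0, hδ0, hball⟩ := Metric.mem_nhds_iff.mp hs
  refine ⟨min δ0 (1 / 4), by positivity, ?_⟩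
  intro a b c a' c' ha hb hc ha' hc' h0 hne
  have hδ1 : min δ0 (1 / 4) ≤ δ0 := min_le_left _ _
  have hδ2 : min δ0 (1 / 4) ≤ 1 / 4 := min_le_right _ _
  generalize min δ0 (1 / 4) = δ at *
  obtain ⟨u, hu⟩ : ∃ u, u = a' - a := ⟨_, rfl⟩
  obtain ⟨v, hv⟩ : ∃ v, v = c' - c := ⟨_, rfl⟩
  have hseg : ∀ t ∈ Icc (0 : ℝ) 1, ‖a + t • u‖ < δ ∧ ‖c + t • v + p‖ < δ := by
    intro t ht
    constructor
    · have := (convex_ball (0 : E) δ).add_smul_sub_mem (x := a) (y := a') (by simpa using ha)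
        (by simpa using ha') ht
      simpa [hu] using this
    · have := (convex_ball (-p) δ).add_smul_sub_mem (x := c) (y := c')
        (by simpa [dist_eq_norm] using hc) (by simpa [dist_eq_norm] using hc') ht
      simpa [dist_eq_norm, hv] using this
  have hmem : ∀ x y : E, ‖x‖ < δ → ‖y + p‖ < δ → (x, b, y) ∈ s := by
    intro x y hx hy
    apply hball
    rw [mem_ball, Prod.dist_eq, Prod.dist_eq]
    simp only [dist_eq_norm, sub_zero, sub_neg_eq_add, sup_lt_iff]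
    exact ⟨by linarith, by linarith, by linarith⟩
  have hne1 : ∀ x : E, ‖x‖ < δ → x - b ≠ 0 := by
    intro x hx h
    have h1 : x = b := sub_eq_zero.mp h
    have h2 := norm_sub_norm_le p (p - b)
    rw [norm_sub_rev p b, sub_sub_cancel, hp, ← h1] at h2
    rw [← h1] at hb
    linarith
  have hne2 : ∀ x y : E, ‖x‖ < δ → ‖y + p‖ < δ → x - y ≠ 0 := by
    intro x y hx hy h
    have h1 : x = y := sub_eq_zero.mp h
    have h2 := norm_sub_le (y + p) y
    rw [add_sub_cancel_left, hp] at h2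
    rw [h1] at hx
    linarith
  have hne3 : ∀ y : E, ‖y + p‖ < δ → b - y ≠ 0 := by
    intro y hy h
    have h1 : b = y := sub_eq_zero.mp h
    have h2 := norm_sub_le (y + p) (y - p)
    have h3 : y + p - (y - p) = (2 : ℝ) • p := by module
    rw [h3, norm_smul, hp, ← h1] at h2
    rw [← h1] at hy
    norm_num at h2
    linarith
  have hder : ∀ t ∈ Icc (0 : ℝ) 1, HasDerivAt (fun t : ℝ => Fp p (a + t • u) b (c + t • v))
      (⟪(Psi p (a + t • u, b, c + t • v)).1, u⟫ + ⟪(Psi p (a + t • u, b, c + t • v)).2, v⟫) t :=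
    fun t ht => line_deriv p a b c u v t (hne1 _ (hseg t ht).1)
      (hne2 _ _ (hseg t ht).1 (hseg t ht).2) (hne3 _ (hseg t ht).2)
  obtain ⟨t, ht, hslope⟩ := exists_hasDerivAt_eq_slope
    (fun t : ℝ => Fp p (a + t • u) b (c + t • v)) _ zero_lt_one
    (fun t ht => (hder t ht).continuousAt.continuousWithinAt)
    (fun t ht => hder t (Ioo_subset_Icc_self ht))
  have ht' := Ioo_subset_Icc_self ht
  have happ' := happ _ (hmem _ _ (hseg t ht').1 (hseg t ht').2) _ (hmem a c ha hc)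
  have hmain := grad_pos hp ht.1 h0 happ' (by
    intro h
    apply hne
    rw [hu, hv] at h
    rw [sub_eq_zero.mp h.1, sub_eq_zero.mp h.2])
  rw [hslope] at hmain
  simp only [one_smul, zero_smul, add_zero, sub_zero, div_one, hu, hv, add_sub_cancel] at hmain
  linarith

/-- The local branch through `(0, p, -p)`. -/
theorem local_branch {p : E} (hp : ‖p‖ = 1) (η : ℝ) (hη : 0 < η) :
    ∃ δ : ℝ, 0 < δ ∧ δ ≤ η ∧ ∃ β κ : E → E, ∃ s ∈ 𝓝 (0 : E),
      ContinuousOn β s ∧ ContinuousOn κ s ∧ InjOn β s ∧ InjOn κ s ∧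
      (∀ N : Set E, volume N = 0 → volume (s ∩ β ⁻¹' N) = 0) ∧
      (∀ N : Set E, volume N = 0 → volume (s ∩ κ ⁻¹' N) = 0) ∧
      (∀ a ∈ s, ‖a‖ < η ∧ ‖β a - p‖ < η ∧ ‖κ a + p‖ < η) ∧
      (∀ a ∈ s, ∀ a' ∈ s, ∀ a'' ∈ s, (a', κ a'') ≠ (a, κ a) →
        Fp p a (β a) (κ a) < Fp p a' (β a) (κ a'')) := by
  obtain ⟨δ0, hδ0, hmin⟩ := strict_min hp
  let Φ' : (E × E × E) →L[ℝ] (E × E × E) := cA.prod (Lin p)
  have hinj : Function.Injective Φ' := by
    rw [injective_iff_map_eq_zero]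
    rintro ⟨a, b, c⟩ h
    have h1 : a = 0 := congrArg Prod.fst h
    have h2 : Lin p (a, b, c) = 0 := congrArg Prod.snd h
    subst h1
    obtain ⟨rfl, rfl⟩ := Lin_inj0 hp h2
    rfl
  let e : (E × E × E) ≃L[ℝ] (E × E × E) :=
    (LinearEquiv.ofInjectiveEndo Φ'.toLinearMap hinj).toContinuousLinearEquiv
  have he : (e : (E × E × E) →L[ℝ] (E × E × E)) = Φ' := ContinuousLinearMap.ext fun v => rfl
  let Φ : E × E × E → E × E × E := fun w => (w.1, Psi p w)
  have hΦ : HasStrictFDerivAt Φ (e : (E × E × E) →L[ℝ] (E × E × E)) (0, p, -p) := by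
    rw [he]
    exact (cA.hasStrictFDerivAt (x := (0, p, -p))).prodMk (Psi_strict hp)
  have hΦ0 : Φ (0, p, -p) = (0, 0) := by simp [Φ, Psi_base hp]
  let G := hΦ.localInverse Φ e (0, p, -p)
  have hG : HasStrictFDerivAt G (e.symm : (E × E × E) →L[ℝ] (E × E × E)) (0, 0) := by
    have := hΦ.to_localInverse
    rwa [hΦ0] at this
  have hG0 : G (0, 0) = (0, p, -p) := by
    have := hΦ.localInverse_apply_image
    rwa [hΦ0] at this
  let ι : E →L[ℝ] E × E × E := ContinuousLinearMap.inl ℝ E (E × E)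
  have hι0 : ι 0 = (0, 0) := by simp [ι]
  have hGι : HasStrictFDerivAt (fun a => G (ι a))
      ((e.symm : (E × E × E) →L[ℝ] (E × E × E)).comp ι) 0 := by
    refine HasStrictFDerivAt.comp (0 : E) ?_ ι.hasStrictFDerivAt
    rwa [hι0]
  have hright : ∀ᶠ a in 𝓝 (0 : E), Φ (G (ι a)) = ι a := by
    have h1 := hΦ.eventually_right_inverse
    rw [hΦ0, ← hι0] at h1
    exact ι.continuous.continuousAt.eventually h1
  have hsymm : ∀ v : E, (e.symm (ι v)).1 = v ∧ Lin p (e.symm (ι v)) = 0 := by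
    intro v
    have h1 : Φ' (e.symm (ι v)) = ι v := by
      rw [← he]; exact e.apply_symm_apply _
    exact ⟨congrArg Prod.fst h1, congrArg Prod.snd h1⟩
  let β : E → E := fun a => cB (G (ι a))
  let κ : E → E := fun a => cC (G (ι a))
  have hβ : HasStrictFDerivAt β
      (cB.comp ((e.symm : (E × E × E) →L[ℝ] (E × E × E)).comp ι)) 0 :=
    cB.hasStrictFDerivAt.comp (0 : E) hGι
  have hκ : HasStrictFDerivAt κ
      (cC.comp ((e.symm : (E × E × E) →L[ℝ] (E × E × E)).comp ι)) 0 :=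
    cC.hasStrictFDerivAt.comp (0 : E) hGι
  have hβinj : Function.Injective
      (cB.comp ((e.symm : (E × E × E) →L[ℝ] (E × E × E)).comp ι)) := by
    rw [injective_iff_map_eq_zero]
    intro v hv
    obtain ⟨h1, h2⟩ := hsymm v
    have h3 : (e.symm (ι v)).2.1 = 0 := hv
    have h4 : e.symm (ι v) = (v, 0, (e.symm (ι v)).2.2) := by
      ext1
      · exact h1
      · ext1
        · exact h3
        · rfl
    rw [h4] at h2
    exact Lin_inj1 hp h2
  have hκinj : Function.Injective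
      (cC.comp ((e.symm : (E × E × E) →L[ℝ] (E × E × E)).comp ι)) := by
    rw [injective_iff_map_eq_zero]
    intro v hv
    obtain ⟨h1, h2⟩ := hsymm v
    have h3 : (e.symm (ι v)).2.2 = 0 := hv
    have h4 : e.symm (ι v) = (v, (e.symm (ι v)).2.1, 0) := by
      ext1
      · exact h1
      · ext1
        · rfl
        · exact h3
    rw [h4] at h2
    exact Lin_inj2 hp h2
  obtain ⟨s1, hs1, hc1, hi1, hn1⟩ := nice_of_strict hβ hβinj
  obtain ⟨s2, hs2, hc2, hi2, hn2⟩ := nice_of_strict hκ hκinj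
  set δ := min δ0 η with hδ
  have hδpos : 0 < δ := lt_min hδ0 hη
  have hβ0 : β 0 = p := by simp only [β]; rw [hι0, hG0]; rfl
  have hκ0 : κ 0 = -p := by simp only [κ]; rw [hι0, hG0]; rfl
  have hn3 : ∀ᶠ a in 𝓝 (0 : E), ‖a‖ < δ := by
    have := Metric.ball_mem_nhds (0 : E) hδpos
    filter_upwards [this] with a ha using by simpa using ha
  have hn4 : ∀ᶠ a in 𝓝 (0 : E), ‖β a - p‖ < δ := by
    have := hβ.continuousAt.eventually (Metric.ball_mem_nhds (β 0) hδpos)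
    filter_upwards [this] with a ha using by simpa [hβ0, dist_eq_norm] using ha
  have hn5 : ∀ᶠ a in 𝓝 (0 : E), ‖κ a + p‖ < δ := by
    have := hκ.continuousAt.eventually (Metric.ball_mem_nhds (κ 0) hδpos)
    filter_upwards [this] with a ha using by simpa [hκ0, dist_eq_norm] using ha
  have hall := ((hright.and hn3).and (hn4.and hn5))
  have hle1 : δ ≤ δ0 := min_le_left _ _
  have hle2 : δ ≤ η := min_le_right _ _
  refine ⟨δ, hδpos, hle2, β, κ, s1 ∩ s2 ∩ {a | (Φ (G (ι a)) = ι a ∧ ‖a‖ < δ) ∧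
    (‖β a - p‖ < δ ∧ ‖κ a + p‖ < δ)}, inter_mem (inter_mem hs1 hs2) hall,
    hc1.mono (fun a ha => ha.1.1), hc2.mono (fun a ha => ha.1.2),
    hi1.mono (fun a ha => ha.1.1), hi2.mono (fun a ha => ha.1.2), ?_, ?_, ?_, ?_⟩
  · intro N hN
    refine measure_mono_null ?_ (hn1 N hN)
    rintro a ⟨ha, hb⟩
    exact ⟨ha.1.1, hb⟩
  · intro N hN
    refine measure_mono_null ?_ (hn2 N hN)
    rintro a ⟨ha, hb⟩
    exact ⟨ha.1.2, hb⟩
  · intro a ha
    obtain ⟨_, ⟨_, h1⟩, h2, h3⟩ := ha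
    exact ⟨by linarith, by linarith, by linarith⟩
  · intro a ha a' ha' a'' ha'' hne
    obtain ⟨_, ⟨h0, h1⟩, h2, h3⟩ := ha
    obtain ⟨_, ⟨_, h1'⟩, _, _⟩ := ha'
    obtain ⟨_, _, _, h3''⟩ := ha''
    refine hmin a (β a) (κ a) a' (κ a'') (by linarith) (by linarith) (by linarith) (by linarith)
      (by linarith) ?_ hne
    have e1 : (G (ι a)).1 = a := congrArg Prod.fst h0
    have e2 : Psi p (G (ι a)) = 0 := congrArg Prod.snd h0
    have e3 : G (ι a) = (a, β a, κ a) := by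
      ext1
      · exact e1
      · rfl
    rwa [e3] at e2

end Vale.Agent.P121
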