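import Mathlib
import Vale.Agent.P121.Local
import Vale.Agent.P121.Abstract

/-!
The global potential on five small regions.
-/

namespace Vale.Agent.P121

open MeasureTheory Set Filter Topology Metric
open scoped RealInnerProductSpace NNReal ENNReal

def al : Fin 5 → ℝ := ![0, 1, -1, 0, 0]
def ga : Fin 5 → ℝ := ![0, 0, 0, 1, -1]
noncomputable def ctr (p q : E) (k : Fin 5) : E := al k • p + ga k • q
def wt : Fin 5 → Fin 5 → ℕ := ![![500000, 998, 998, 998, 998], ![998, 500000, 499, 705, 705],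
  ![998, 499, 500000, 705, 705], ![998, 705, 705, 500000, 499], ![998, 705, 705, 499, 500000]]
noncomputable def dd : Fin 5 → Fin 5 → ℝ := ![![0, 1, 1, 1, 1], ![1, 0, 2, 1.415, 1.415],
  ![1, 2, 0, 1.415, 1.415], ![1, 1.415, 1.415, 0, 2], ![1, 1.415, 1.415, 2, 0]]
def um : Fin 5 → ℕ := ![2000, 260, 260, 260, 260]

theorem ctr_sq {p q : E} (hp : ‖p‖ = 1) (hq : ‖q‖ = 1) (hpq : ⟪p, q⟫ = 0) (k k' : Fin 5) :
    ‖ctr p q k - ctr p q k'‖ ^ 2 = (al k - al k') ^ 2 + (ga k - ga k') ^ 2 := by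
  have : ctr p q k - ctr p q k' = (al k - al k') • p + (ga k - ga k') • q := by
    simp only [ctr]; module
  rw [this, norm_add_sq_real, norm_smul, norm_smul, inner_smul_left, inner_smul_right, hp, hq, hpq]
  simp

theorem num_facts (k k' : Fin 5) :
    (al k - al k') ^ 2 + (ga k - ga k') ^ 2 ≤ dd k k' ^ 2 ∧ 0 ≤ dd k k' ∧
      (wt k k' : ℝ) / 1000 * (dd k k' + 2 / 1000) ≤ 1 ∧
      (k ≠ k' → 1 ≤ (al k - al k') ^ 2 + (ga k - ga k') ^ 2) := by
  fin_cases k <;> fin_cases k' <;> simp [al, ga, dd, wt] <;> norm_num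

theorem nonbranch : ∀ k1 k2 k3 : Fin 5, ¬ IsBranch k1 k2 k3 →
    um k1 + um k2 + um k3 < wt k1 k2 + wt k1 k3 + wt k2 k3 := by decide

theorem inv_edist_ge {p q : E} (hp : ‖p‖ = 1) (hq : ‖q‖ = 1) (hpq : ⟪p, q⟫ = 0) {k k' : Fin 5}
    {x y : E} (hx : ‖x - ctr p q k‖ < 1 / 1000) (hy : ‖y - ctr p q k'‖ < 1 / 1000) :
    ENNReal.ofReal ((wt k k' : ℝ) / 1000) ≤ (edist x y)⁻¹ := by
  obtain ⟨h1, h2, h3, _⟩ := num_facts k k'
  have h4 : ‖ctr p q k - ctr p q k'‖ ≤ dd k k' :=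
    le_of_sq_le_sq (by rw [ctr_sq hp hq hpq]; exact h1) h2
  have h5 : dist x y ≤ dd k k' + 2 / 1000 := by
    rw [dist_eq_norm]
    have : x - y = (x - ctr p q k) + (ctr p q k - ctr p q k') - (y - ctr p q k') := by abel
    rw [this]
    have := norm_sub_le ((x - ctr p q k) + (ctr p q k - ctr p q k')) (y - ctr p q k')
    have := norm_add_le (x - ctr p q k) (ctr p q k - ctr p q k')
    linarith
  rw [ENNReal.le_inv_iff_mul_le, edist_dist, ← ENNReal.ofReal_mul (by positivity),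
    ← ENNReal.ofReal_one]
  refine ENNReal.ofReal_le_ofReal (le_trans ?_ h3)
  exact mul_le_mul_of_nonneg_left h5 (by positivity)

theorem label_eq {p q : E} (hp : ‖p‖ = 1) (hq : ‖q‖ = 1) (hpq : ⟪p, q⟫ = 0) {k k' : Fin 5}
    {x : E} (hx : ‖x - ctr p q k‖ < 1 / 1000) (hy : ‖x - ctr p q k'‖ < 1 / 1000) : k = k' := by
  by_contra hne
  have h1 := (num_facts k k').2.2.2 hne
  rw [← ctr_sq hp hq hpq] at h1
  have h2 : ‖ctr p q k - ctr p q k'‖ ≤ 2 / 1000 := by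
    have : ctr p q k - ctr p q k' = (x - ctr p q k') - (x - ctr p q k) := by abel
    rw [this]
    have := norm_sub_le (x - ctr p q k') (x - ctr p q k)
    linarith
  nlinarith [norm_nonneg (ctr p q k - ctr p q k')]

theorem inv_edist_eq {x y : E} (h : x ≠ y) : (edist x y)⁻¹ = ENNReal.ofReal ‖x - y‖⁻¹ := by
  rw [edist_dist, dist_eq_norm, ENNReal.ofReal_inv_of_pos (norm_pos_iff.mpr (sub_ne_zero.mpr h))]

noncomputable def U0 (a : E) : ℝ := 2 - 2 * ‖a‖ ^ 2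
noncomputable def UC (p c : E) : ℝ := 1 / 4 + 5 / 4 * ⟪p, c + p⟫ - ‖c + p‖ ^ 2
noncomputable def UB (p a b c : E) : ℝ := Fp p a b c - 9 / 4

theorem U0_bd {a : E} (ha : ‖a‖ < 1 / 1000) : 1999 / 1000 ≤ U0 a ∧ U0 a ≤ 2 := by
  unfold U0
  constructor <;> nlinarith [norm_nonneg a]

theorem UC_bd {p c : E} (hp : ‖p‖ = 1) (hc : ‖c + p‖ < 1 / 1000) :
    248 / 1000 ≤ UC p c ∧ UC p c ≤ 252 / 1000 := by
  unfold UC
  have h1 := abs_real_inner_le_norm p (c + p)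
  rw [hp, one_mul] at h1
  have h2 := abs_le.mp h1
  constructor <;> nlinarith [norm_nonneg (c + p)]

theorem dist_bds {p a b c : E} (hp : ‖p‖ = 1) (ha : ‖a‖ < 1 / 1000) (hb : ‖b - p‖ < 1 / 1000)
    (hc : ‖c + p‖ < 1 / 1000) :
    (998 / 1000 ≤ ‖a - b‖ ∧ ‖a - b‖ ≤ 1002 / 1000) ∧ (998 / 1000 ≤ ‖a - c‖ ∧ ‖a - c‖ ≤ 1002 / 1000)
      ∧ (1998 / 1000 ≤ ‖b - c‖ ∧ ‖b - c‖ ≤ 2002 / 1000) := by
  have k1 : ∀ z w : E, ‖z - w‖ ≤ 2 / 1000 → ‖w‖ - 2 / 1000 ≤ ‖z‖ ∧ ‖z‖ ≤ ‖w‖ + 2 / 1000 := by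
    intro z w h
    have := abs_le.mp ((abs_norm_sub_norm_le z w).trans h)
    constructor <;> linarith [this.1, this.2]
  have e1 := k1 (a - b) (-p) (by
    have : a - b - -p = a - (b - p) := by abel
    rw [this]; linarith [norm_sub_le a (b - p)])
  have e2 := k1 (a - c) p (by
    have : a - c - p = a - (c + p) := by abel
    rw [this]; linarith [norm_sub_le a (c + p)])
  have e3 := k1 (b - c) ((2 : ℝ) • p) (by
    have : b - c - (2 : ℝ) • p = (b - p) - (c + p) := by module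
    rw [this]; linarith [norm_sub_le (b - p) (c + p)])
  rw [norm_neg, hp] at e1
  rw [hp] at e2
  rw [norm_smul, hp] at e3
  norm_num at e3
  refine ⟨⟨?_, ?_⟩, ⟨?_, ?_⟩, ⟨?_, ?_⟩⟩ <;> linarith [e1.1, e1.2, e2.1, e2.2, e3.1, e3.2]

theorem Fp_eq (p a b c : E) :
    Fp p a b c = ‖a - b‖⁻¹ + ‖a - c‖⁻¹ + ‖b - c‖⁻¹ - U0 a - UC p c + 9 / 4 := by
  unfold Fp U0 UC; ring

theorem UB_bd {p a b c : E} (hp : ‖p‖ = 1) (ha : ‖a‖ < 1 / 1000) (hb : ‖b - p‖ < 1 / 1000)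
    (hc : ‖c + p‖ < 1 / 1000) : 0 ≤ UB p a b c ∧ UB p a b c ≤ 260 / 1000 := by
  obtain ⟨⟨h1, h2⟩, ⟨h3, h4⟩, h5, h6⟩ := dist_bds hp ha hb hc
  have u1 := inv_anti₀ (by norm_num) h1
  have u2 := inv_anti₀ (by linarith) h2
  have u3 := inv_anti₀ (by norm_num) h3
  have u4 := inv_anti₀ (by linarith) h4
  have u5 := inv_anti₀ (by norm_num) h5
  have u6 := inv_anti₀ (by linarith) h6
  have v1 := U0_bd ha
  have v2 := UC_bd hp hc
  unfold UB
  rw [Fp_eq]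
  norm_num at u1 u2 u3 u4 u5 u6
  constructor <;> linarith [v1.1, v1.2, v2.1, v2.2]

theorem coulomb_eq {p a b c : E} (hp : ‖p‖ = 1) (ha : ‖a‖ < 1 / 1000) (hb : ‖b - p‖ < 1 / 1000)
    (hc : ‖c + p‖ < 1 / 1000) :
    coulomb (a, b, c) = ENNReal.ofReal (‖a - b‖⁻¹ + ‖a - c‖⁻¹ + ‖b - c‖⁻¹) := by
  obtain ⟨⟨h1, _⟩, ⟨h3, _⟩, h5, _⟩ := dist_bds hp ha hb hc
  have n1 : a ≠ b := by rintro rfl; norm_num at h1
  have n2 : a ≠ c := by rintro rfl; norm_num at h3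
  have n3 : b ≠ c := by rintro rfl; norm_num at h5
  unfold coulomb
  simp only
  rw [inv_edist_eq n1, inv_edist_eq n2, inv_edist_eq n3, ENNReal.ofReal_add (by positivity)
    (by positivity), ENNReal.ofReal_add (by positivity) (by positivity)]

/-- the branch inequality with its equality case -/
theorem branch_ineq {p : E} (hp : ‖p‖ = 1) {A : Set E} {β κ : E → E} (hκ : InjOn κ A)
    (hclose : ∀ a ∈ A, ‖a‖ < 1 / 1000 ∧ ‖β a - p‖ < 1 / 1000 ∧ ‖κ a + p‖ < 1 / 1000)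
    (hmin : ∀ a ∈ A, ∀ a' ∈ A, ∀ a'' ∈ A, (a', κ a'') ≠ (a, κ a) →
      Fp p a (β a) (κ a) < Fp p a' (β a) (κ a''))
    {a1 a2 a3 : E} (h1 : a1 ∈ A) (h2 : a2 ∈ A) (h3 : a3 ∈ A) :
    ENNReal.ofReal (U0 a1) + ENNReal.ofReal (UB p a2 (β a2) (κ a2)) +
        ENNReal.ofReal (UC p (κ a3)) ≤ coulomb (a1, β a2, κ a3) ∧
      (ENNReal.ofReal (U0 a1) + ENNReal.ofReal (UB p a2 (β a2) (κ a2)) +
        ENNReal.ofReal (UC p (κ a3)) = coulomb (a1, β a2, κ a3) ↔ a1 = a2 ∧ a2 = a3) := by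
  have c1 := hclose a1 h1
  have c2 := hclose a2 h2
  have c3 := hclose a3 h3
  have v1 := U0_bd c1.1
  have v2 := UB_bd hp c2.1 c2.2.1 c2.2.2
  have v3 := UC_bd hp c3.2.2
  rw [coulomb_eq hp c1.1 c2.2.1 c3.2.2, ← ENNReal.ofReal_add (by linarith [v1.1]) v2.1,
    ← ENNReal.ofReal_add (by linarith [v1.1, v2.1]) (by linarith [v3.1])]
  have e := Fp_eq p a1 (β a2) (κ a3)
  by_cases h : (a1, κ a3) = (a2, κ a2)
  · obtain ⟨e1, e2⟩ := Prod.mk.inj h
    have e3 : a3 = a2 := hκ h3 h2 e2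
    subst e1 e3
    have : U0 a3 + UB p a3 (β a3) (κ a3) + UC p (κ a3)
        = ‖a3 - β a3‖⁻¹ + ‖a3 - κ a3‖⁻¹ + ‖β a3 - κ a3‖⁻¹ := by
      unfold UB; linarith
    rw [this]
    simp
  · have hlt := hmin a2 h2 a1 h1 a3 h3 h
    have hlt2 : U0 a1 + UB p a2 (β a2) (κ a2) + UC p (κ a3)
        < ‖a1 - β a2‖⁻¹ + ‖a1 - κ a3‖⁻¹ + ‖β a2 - κ a3‖⁻¹ := by
      unfold UB; linarith
    have hlt3 := (ENNReal.ofReal_lt_ofReal_iff (by linarith [v1.1, v2.1, v3.1])).mpr hlt2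
    refine ⟨hlt3.le, ⟨fun h' => absurd h' hlt3.ne, ?_⟩⟩
    rintro ⟨rfl, rfl⟩
    exact absurd rfl h

theorem coulomb_swap12 (x y z : E) : coulomb (y, x, z) = coulomb (x, y, z) := by
  simp only [coulomb, edist_comm y x]; ring

theorem coulomb_swap23 (x y z : E) : coulomb (x, z, y) = coulomb (x, y, z) := by
  simp only [coulomb, edist_comm z y]; ring

/-- the relation between potential and cost at a triple -/
def Rel (u : E → ℝ≥0∞) (x y z : E) (P : Prop) : Prop :=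
  u x + u y + u z ≤ coulomb (x, y, z) ∧ (u x + u y + u z = coulomb (x, y, z) ↔ P)

theorem Rel.swap12 {u : E → ℝ≥0∞} {x y z : E} {P : Prop} (h : Rel u x y z P) : Rel u y x z P := by
  unfold Rel at *
  rwa [coulomb_swap12, add_comm (u y) (u x)]

theorem Rel.swap23 {u : E → ℝ≥0∞} {x y z : E} {P : Prop} (h : Rel u x y z P) : Rel u x z y P := by
  unfold Rel at *
  rwa [coulomb_swap23, add_right_comm (u x) (u z) (u y)]

theorem Rel.congr {u : E → ℝ≥0∞} {x y z : E} {P Q : Prop} (h : Rel u x y z P) (hPQ : P ↔ Q) :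
    Rel u x y z Q := by
  rwa [← propext hPQ]

theorem exists_potential {A : Set E} (hA : MeasurableSet A) {m : Fin 5 → E → E}
    (hm : ∀ k, Measurable (m k))
    (hinj : ∀ k k', ∀ a ∈ A, ∀ a' ∈ A, m k a = m k' a' → k = k' ∧ a = a')
    {U : Fin 5 → E → ℝ} (hU : ∀ k, Measurable (U k))
    (hUb : ∀ k, ∀ a ∈ A, U k a ≤ (um k : ℝ) / 1000) :
    ∃ u : E → ℝ≥0∞, Measurable u ∧ (∀ x, u x ≤ 3) ∧
      ∀ k, ∀ a ∈ A, u (m k a) = ENNReal.ofReal (U k a) := by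
  classical
  have : StandardBorelSpace A := hA.standardBorel
  let J : Fin 5 × A → E := fun w => m w.1 w.2
  have hJm : Measurable J :=
    measurable_from_prod_countable_right fun k => (hm k).comp measurable_subtype_coe
  have hJi : Function.Injective J := by
    rintro ⟨k, a⟩ ⟨k', a'⟩ h
    obtain ⟨h1, h2⟩ := hinj k k' a a.2 a' a'.2 h
    exact Prod.ext h1 (Subtype.ext h2)
  have hJ : MeasurableEmbedding J := hJm.measurableEmbedding hJi
  let U' : Fin 5 × A → ℝ≥0∞ := fun w => ENNReal.ofReal (U w.1 w.2)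
  have hU' : Measurable U' :=
    measurable_from_prod_countable_right fun k =>
      ((hU k).comp measurable_subtype_coe).ennreal_ofReal
  let u : E → ℝ≥0∞ := Function.extend J U' 0
  have hu : Measurable u := hJ.measurable_extend hU' measurable_const
  have huv : ∀ k, ∀ a ∈ A, u (m k a) = ENNReal.ofReal (U k a) := fun k a ha =>
    hJi.extend_apply U' 0 (k, ⟨a, ha⟩)
  have hub : ∀ x, u x ≤ 3 := by
    intro x
    by_cases hx : ∃ w, J w = x
    · obtain ⟨⟨k, a⟩, rfl⟩ := hx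
      change u (m k a) ≤ 3
      rw [huv k a a.2]
      have h1 := hUb k a a.2
      have h2 : (um k : ℝ) ≤ 2000 := by
        have : um k ≤ 2000 := (by decide : ∀ k, um k ≤ 2000) k
        exact_mod_cast this
      rw [show (3 : ℝ≥0∞) = ENNReal.ofReal 3 by simp]
      exact ENNReal.ofReal_le_ofReal (by linarith)
    · simp only [u]
      rw [Function.extend_apply' _ _ _ hx]
      simp
  exact ⟨u, hu, hub, huv⟩

theorem rel_all {A : Set E} {m : Fin 5 → E → E} {u : E → ℝ≥0∞}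
    (hb1 : ∀ a1 ∈ A, ∀ a2 ∈ A, ∀ a3 ∈ A,
      Rel u (m 0 a1) (m 1 a2) (m 2 a3) (a1 = a2 ∧ a2 = a3))
    (hb2 : ∀ a1 ∈ A, ∀ a2 ∈ A, ∀ a3 ∈ A,
      Rel u (m 0 a1) (m 3 a2) (m 4 a3) (a1 = a2 ∧ a2 = a3)) :
    ∀ k1 k2 k3, IsBranch k1 k2 k3 → ∀ a1 ∈ A, ∀ a2 ∈ A, ∀ a3 ∈ A,
      Rel u (m k1 a1) (m k2 a2) (m k3 a3) (a1 = a2 ∧ a2 = a3) := by
  intro k1 k2 k3 hb a1 h1 a2 h2 a3 h3
  simp only [IsBranch, List.mem_cons, Prod.mk.injEq, List.not_mem_nil, or_false] at hb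
  rcases hb with h | h | h | h | h | h | h | h | h | h | h | h <;> obtain ⟨rfl, rfl, rfl⟩ := h
  · exact hb1 a1 h1 a2 h2 a3 h3
  · exact (hb1 a1 h1 a3 h3 a2 h2).swap23.congr (by grind)
  · exact (hb1 a2 h2 a1 h1 a3 h3).swap12.congr (by grind)
  · exact (hb1 a3 h3 a1 h1 a2 h2).swap12.swap23.congr (by grind)
  · exact (hb1 a2 h2 a3 h3 a1 h1).swap23.swap12.congr (by grind)
  · exact (hb1 a3 h3 a2 h2 a1 h1).swap23.swap12.swap23.congr (by grind)
  · exact hb2 a1 h1 a2 h2 a3 h3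
  · exact (hb2 a1 h1 a3 h3 a2 h2).swap23.congr (by grind)
  · exact (hb2 a2 h2 a1 h1 a3 h3).swap12.congr (by grind)
  · exact (hb2 a3 h3 a1 h1 a2 h2).swap12.swap23.congr (by grind)
  · exact (hb2 a2 h2 a3 h3 a1 h1).swap23.swap12.congr (by grind)
  · exact (hb2 a3 h3 a2 h2 a1 h1).swap23.swap12.swap23.congr (by grind)

theorem nonbranch_lt {p q : E} (hp : ‖p‖ = 1) (hq : ‖q‖ = 1) (hpq : ⟪p, q⟫ = 0)
    {A : Set E} {m : Fin 5 → E → E} {u : E → ℝ≥0∞} {U : Fin 5 → E → ℝ}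
    (hclose : ∀ k, ∀ a ∈ A, ‖m k a - ctr p q k‖ < 1 / 1000)
    (huv : ∀ k, ∀ a ∈ A, u (m k a) = ENNReal.ofReal (U k a))
    (hUb : ∀ k, ∀ a ∈ A, U k a ≤ (um k : ℝ) / 1000) :
    ∀ k1 k2 k3, ¬ IsBranch k1 k2 k3 → ∀ a1 ∈ A, ∀ a2 ∈ A, ∀ a3 ∈ A,
      u (m k1 a1) + u (m k2 a2) + u (m k3 a3) < coulomb (m k1 a1, m k2 a2, m k3 a3) := by
  intro k1 k2 k3 hb a1 h1 a2 h2 a3 h3
  have hlt : ((um k1 + um k2 + um k3 : ℕ) : ℝ) < ((wt k1 k2 + wt k1 k3 + wt k2 k3 : ℕ) : ℝ) := by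
    exact_mod_cast nonbranch k1 k2 k3 hb
  push_cast at hlt
  have i1 := inv_edist_ge hp hq hpq (hclose k1 a1 h1) (hclose k2 a2 h2)
  have i2 := inv_edist_ge hp hq hpq (hclose k1 a1 h1) (hclose k3 a3 h3)
  have i3 := inv_edist_ge hp hq hpq (hclose k2 a2 h2) (hclose k3 a3 h3)
  rw [huv k1 a1 h1, huv k2 a2 h2, huv k3 a3 h3]
  calc ENNReal.ofReal (U k1 a1) + ENNReal.ofReal (U k2 a2) + ENNReal.ofReal (U k3 a3)
      ≤ ENNReal.ofReal ((um k1 : ℝ) / 1000) + ENNReal.ofReal ((um k2 : ℝ) / 1000)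
        + ENNReal.ofReal ((um k3 : ℝ) / 1000) := by
        gcongr
        · exact hUb k1 a1 h1
        · exact hUb k2 a2 h2
        · exact hUb k3 a3 h3
    _ < ENNReal.ofReal ((wt k1 k2 : ℝ) / 1000) + ENNReal.ofReal ((wt k1 k3 : ℝ) / 1000)
        + ENNReal.ofReal ((wt k2 k3 : ℝ) / 1000) := by
        rw [← ENNReal.ofReal_add (by positivity) (by positivity),
          ← ENNReal.ofReal_add (by positivity) (by positivity),
          ← ENNReal.ofReal_add (by positivity) (by positivity),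
          ← ENNReal.ofReal_add (by positivity) (by positivity)]
        refine (ENNReal.ofReal_lt_ofReal_iff_of_nonneg (by positivity)).mpr ?_
        linarith
    _ ≤ coulomb (m k1 a1, m k2 a2, m k3 a3) := add_le_add (add_le_add i1 i2) i3

theorem no_monge : ∃ μ : Measure E, IsProbabilityMeasure μ ∧ μ ≪ volume ∧
    μ (closedBall 0 2)ᶜ = 0 ∧ kantorovich μ < ∞ ∧
      ∀ T2 T3 : E → E, Measurable T2 → Measurable T3 → μ.map T2 = μ → μ.map T3 = μ →
        ∫⁻ x, coulomb (x, T2 x, T3 x) ∂μ ≠ kantorovich μ := by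
  classical
  let p : E := EuclideanSpace.single 0 1
  let q : E := EuclideanSpace.single 1 1
  have hp : ‖p‖ = 1 := by simp [p]
  have hq : ‖q‖ = 1 := by simp [q]
  have hpq : ⟪p, q⟫ = 0 := by simp [p, q, EuclideanSpace.inner_single_left]
  obtain ⟨_, _, _, β1, κ1, s1, hs1, cβ1, cκ1, iβ1, iκ1, nβ1, nκ1, cl1, mn1⟩ :=
    local_branch hp (1 / 1000) (by norm_num)
  obtain ⟨_, _, _, β2, κ2, s2, hs2, cβ2, cκ2, iβ2, iκ2, nβ2, nκ2, cl2, mn2⟩ :=
    local_branch hq (1 / 1000) (by norm_num)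
  obtain ⟨r, hr, hball⟩ := Metric.mem_nhds_iff.mp (inter_mem hs1 hs2)
  set A : Set E := ball 0 r with hAdef
  have hA : MeasurableSet A := measurableSet_ball
  have hA1 : A ⊆ s1 := fun a ha => (hball ha).1
  have hA2 : A ⊆ s2 := fun a ha => (hball ha).2
  let m0 : Fin 5 → E → E := ![id, β1, κ1, β2, κ2]
  have hm0c : ∀ k, ContinuousOn (m0 k) A := by
    intro k
    fin_cases k
    · exact continuousOn_id
    · exact cβ1.mono hA1
    · exact cκ1.mono hA1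
    · exact cβ2.mono hA2
    · exact cκ2.mono hA2
  let m : Fin 5 → E → E := fun k => A.piecewise (m0 k) id
  have hm : ∀ k, Measurable (m k) := fun k =>
    ContinuousOn.measurable_piecewise (hm0c k) continuousOn_id hA
  have hmA : ∀ k, ∀ a ∈ A, m k a = m0 k a := fun k a ha => piecewise_eq_of_mem _ _ _ ha
  have hmid : ∀ a, m 0 a = a := by
    intro a
    by_cases ha : a ∈ A
    · rw [hmA 0 a ha]; rfl
    · exact piecewise_eq_of_notMem _ _ _ ha
  have hclose : ∀ k, ∀ a ∈ A, ‖m k a - ctr p q k‖ < 1 / 1000 := by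
    intro k a ha
    rw [hmA k a ha]
    fin_cases k
    · simpa [m0, ctr, al, ga] using (cl1 a (hA1 ha)).1
    · simpa [m0, ctr, al, ga] using (cl1 a (hA1 ha)).2.1
    · simpa [m0, ctr, al, ga] using (cl1 a (hA1 ha)).2.2
    · simpa [m0, ctr, al, ga] using (cl2 a (hA2 ha)).2.1
    · simpa [m0, ctr, al, ga] using (cl2 a (hA2 ha)).2.2
  have hinj : ∀ k k', ∀ a ∈ A, ∀ a' ∈ A, m k a = m k' a' → k = k' ∧ a = a' := by
    intro k k' a ha a' ha' h
    have hk : k = k' := label_eq hp hq hpq (hclose k a ha) (h ▸ hclose k' a' ha')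
    subst hk
    refine ⟨rfl, ?_⟩
    rw [hmA k a ha, hmA k a' ha'] at h
    fin_cases k
    · exact h
    · exact iβ1 (hA1 ha) (hA1 ha') h
    · exact iκ1 (hA1 ha) (hA1 ha') h
    · exact iβ2 (hA2 ha) (hA2 ha') h
    · exact iκ2 (hA2 ha) (hA2 ha') h
  have hvol0 : volume A ≠ 0 := (measure_ball_pos volume 0 hr).ne'
  have hvolt : volume A ≠ ∞ := measure_ball_lt_top.ne
  let lam : Measure E := (6 * volume A)⁻¹ • volume.restrict A
  have hlam : lam univ = 1 / 6 := by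
    simp only [lam, Measure.smul_apply, Measure.restrict_apply_univ, smul_eq_mul]
    rw [ENNReal.mul_inv (by simp) (by simp), mul_assoc, ENNReal.inv_mul_cancel hvol0 hvolt]
    simp
  have hlamA : lam Aᶜ = 0 := by
    simp [lam, Measure.restrict_apply hA.compl]
  have hac : ∀ k, lam.map (m k) ≪ volume := by
    intro k
    refine Measure.AbsolutelyContinuous.mk fun N hN h0 => ?_
    rw [Measure.map_apply (hm k) hN]
    simp only [lam, Measure.smul_apply, smul_eq_mul]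
    rw [Measure.restrict_apply (hm k hN)]
    have : volume (m k ⁻¹' N ∩ A) = 0 := by
      have hsub : m k ⁻¹' N ∩ A ⊆ A ∩ m0 k ⁻¹' N := by
        rintro a ⟨h1, h2⟩
        exact ⟨h2, by rw [mem_preimage, ← hmA k a h2]; exact h1⟩
      refine measure_mono_null hsub ?_
      fin_cases k
      · exact measure_mono_null inter_subset_right h0
      · exact measure_mono_null (inter_subset_inter_left _ hA1) (nβ1 N h0)
      · exact measure_mono_null (inter_subset_inter_left _ hA1) (nκ1 N h0)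
      · exact measure_mono_null (inter_subset_inter_left _ hA2) (nβ2 N h0)
      · exact measure_mono_null (inter_subset_inter_left _ hA2) (nκ2 N h0)
    rw [this, mul_zero]
  let U : Fin 5 → E → ℝ := ![U0, fun a => UB p a (m 1 a) (m 2 a), fun a => UC p (m 2 a),
    fun a => UB q a (m 3 a) (m 4 a), fun a => UC q (m 4 a)]
  have hU : ∀ k, Measurable (U k) := by
    intro k
    have h1 := hm 1
    have h2 := hm 2
    have h3 := hm 3
    have h4 := hm 4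
    fin_cases k
    · change Measurable U0
      unfold U0; fun_prop
    · change Measurable fun a => UB p a (m 1 a) (m 2 a)
      unfold UB Fp; fun_prop
    · change Measurable fun a => UC p (m 2 a)
      unfold UC; fun_prop
    · change Measurable fun a => UB q a (m 3 a) (m 4 a)
      unfold UB Fp; fun_prop
    · change Measurable fun a => UC q (m 4 a)
      unfold UC; fun_prop
  have hUb : ∀ k, ∀ a ∈ A, U k a ≤ (um k : ℝ) / 1000 := by
    intro k a ha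
    have c1 := cl1 a (hA1 ha)
    have c2 := cl2 a (hA2 ha)
    fin_cases k
    · change U0 a ≤ ((2000 : ℕ) : ℝ) / 1000
      have := (U0_bd c1.1).2
      push_cast; linarith
    · change UB p a (m 1 a) (m 2 a) ≤ ((260 : ℕ) : ℝ) / 1000
      rw [hmA 1 a ha, hmA 2 a ha]
      exact_mod_cast (UB_bd hp c1.1 c1.2.1 c1.2.2).2
    · change UC p (m 2 a) ≤ ((260 : ℕ) : ℝ) / 1000
      rw [hmA 2 a ha]
      have : UC p (κ1 a) ≤ _ := (UC_bd hp c1.2.2).2
      change UC p (κ1 a) ≤ _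
      push_cast; linarith
    · change UB q a (m 3 a) (m 4 a) ≤ ((260 : ℕ) : ℝ) / 1000
      rw [hmA 3 a ha, hmA 4 a ha]
      exact_mod_cast (UB_bd hq c2.1 c2.2.1 c2.2.2).2
    · change UC q (m 4 a) ≤ ((260 : ℕ) : ℝ) / 1000
      rw [hmA 4 a ha]
      have : UC q (κ2 a) ≤ _ := (UC_bd hq c2.2.2).2
      change UC q (κ2 a) ≤ _
      push_cast; linarith
  obtain ⟨u, hu, hub, huv⟩ := exists_potential hA hm hinj hU hUb
  have hb1 : ∀ a1 ∈ A, ∀ a2 ∈ A, ∀ a3 ∈ A,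
      Rel u (m 0 a1) (m 1 a2) (m 2 a3) (a1 = a2 ∧ a2 = a3) := by
    intro a1 h1 a2 h2 a3 h3
    have := branch_ineq hp (A := A) (β := β1) (κ := κ1) (iκ1.mono hA1)
      (fun a ha => cl1 a (hA1 ha)) (fun a ha a' ha' a'' ha'' => mn1 a (hA1 ha) a' (hA1 ha') a''
        (hA1 ha'')) h1 h2 h3
    unfold Rel
    rw [huv 0 a1 h1, huv 1 a2 h2, huv 2 a3 h3]
    change ENNReal.ofReal (U0 a1) + ENNReal.ofReal (UB p a2 (m 1 a2) (m 2 a2)) +
      ENNReal.ofReal (UC p (m 2 a3)) ≤ _ ∧ (ENNReal.ofReal (U0 a1) +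
      ENNReal.ofReal (UB p a2 (m 1 a2) (m 2 a2)) + ENNReal.ofReal (UC p (m 2 a3)) = _ ↔ _)
    rw [hmid, hmA 1 a2 h2, hmA 2 a2 h2, hmA 2 a3 h3]
    exact this
  have hb2 : ∀ a1 ∈ A, ∀ a2 ∈ A, ∀ a3 ∈ A,
      Rel u (m 0 a1) (m 3 a2) (m 4 a3) (a1 = a2 ∧ a2 = a3) := by
    intro a1 h1 a2 h2 a3 h3
    have := branch_ineq hq (A := A) (β := β2) (κ := κ2) (iκ2.mono hA2)
      (fun a ha => cl2 a (hA2 ha)) (fun a ha a' ha' a'' ha'' => mn2 a (hA2 ha) a' (hA2 ha') a''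
        (hA2 ha'')) h1 h2 h3
    unfold Rel
    rw [huv 0 a1 h1, huv 3 a2 h2, huv 4 a3 h3]
    change ENNReal.ofReal (U0 a1) + ENNReal.ofReal (UB q a2 (m 3 a2) (m 4 a2)) +
      ENNReal.ofReal (UC q (m 4 a3)) ≤ _ ∧ (ENNReal.ofReal (U0 a1) +
      ENNReal.ofReal (UB q a2 (m 3 a2) (m 4 a2)) + ENNReal.ofReal (UC q (m 4 a3)) = _ ↔ _)
    rw [hmid, hmA 3 a2 h2, hmA 4 a2 h2, hmA 4 a3 h3]
    exact this
  have hbr := rel_all hb1 hb2
  have hnb := nonbranch_lt hp hq hpq hclose huv hUb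
  obtain ⟨r1, r2, r3⟩ := abstract_no_monge hA hm hmid hinj hlam hlamA hu hub
    (by
      intro k1 k2 k3 a1 h1 a2 h2 a3 h3
      by_cases hb : IsBranch k1 k2 k3
      · exact (hbr k1 k2 k3 hb a1 h1 a2 h2 a3 h3).1
      · exact (hnb k1 k2 k3 hb a1 h1 a2 h2 a3 h3).le)
    (by
      intro k1 k2 k3 a1 h1 a2 h2 a3 h3 h
      by_cases hb : IsBranch k1 k2 k3
      · exact ⟨hb, (hbr k1 k2 k3 hb a1 h1 a2 h2 a3 h3).2.mp h⟩
      · exact absurd h (hnb k1 k2 k3 hb a1 h1 a2 h2 a3 h3).ne)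
    (fun k1 k2 k3 hb a ha => (hbr k1 k2 k3 hb a ha a ha a ha).2.mpr ⟨rfl, rfl⟩)
  refine ⟨mu m lam, r1, ?_, ?_, r2, r3⟩
  · unfold mu
    exact (((((hac 0).add_left (hac 0)).add_left (hac 1)).add_left (hac 2)).add_left
      (hac 3)).add_left (hac 4)
  · have : ∀ k, lam.map (m k) (closedBall 0 2)ᶜ = 0 := by
      intro k
      rw [Measure.map_apply (hm k) measurableSet_closedBall.compl]
      refine measure_mono_null ?_ hlamA
      intro a ha haA
      apply ha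
      have h1 := hclose k a haA
      have h2 : ‖ctr p q k‖ ≤ 1 := by
        have h3 := ctr_sq hp hq hpq k 0
        have h4 : ctr p q 0 = 0 := by simp [ctr, al, ga]
        rw [h4, sub_zero] at h3
        refine le_of_sq_le_sq ?_ zero_le_one
        rw [h3]
        fin_cases k <;> simp [al, ga]
      rw [mem_closedBall, dist_zero_right]
      have := norm_le_norm_add_norm_sub' (m k a) (ctr p q k)
      linarith
    simp [mu, this]

end Vale.Agent.P121
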